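import Mathlib

namespace Vale.Agent.Helper23.KKAveraging

/-- Averaging over red sets: if each member `tau` of `VV` together with its forbidden set
`Nb tau` has at most `t` elements, and for every red set `R` at most `B` members of `VV` are
contained in `R` with forbidden set disjoint from `R`, then `VV` has at most `2 ^ t * B`
members. -/
theorem averaging {n : Nat} (VV : Finset (Finset (Fin n)))
    (Nb : Finset (Fin n) → Finset (Fin n)) (t : Nat) (B : Real)
    (hdisj : ∀ tau, tau ∈ VV → Disjoint tau (Nb tau))
    (ht : ∀ tau, tau ∈ VV → tau.card + (Nb tau).card ≤ t)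
    (hB : ∀ (R : Finset (Fin n)) (DD : Finset (Finset (Fin n))), DD ⊆ VV →
      (∀ tau, tau ∈ DD → tau ⊆ R ∧ Disjoint (Nb tau) R) → (DD.card : Real) ≤ B) :
    (VV.card : Real) ≤ 2 ^ t * B := by
  classical
  -- for a fixed member, many red sets are good
  have count1 : ∀ tau ∈ VV, 2 ^ n ≤ 2 ^ t *
      ((Finset.univ : Finset (Finset (Fin n))).filter
        (fun R => tau ⊆ R ∧ Disjoint (Nb tau) R)).card := by
    intro tau htau
    have hle : ((tau ∪ Nb tau)ᶜ).powerset.card ≤
        ((Finset.univ : Finset (Finset (Fin n))).filter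
          (fun R => tau ⊆ R ∧ Disjoint (Nb tau) R)).card := by
      apply Finset.card_le_card_of_injOn (fun R' => tau ∪ R')
      · intro R' hR'
        have hR'' : R' ⊆ (tau ∪ Nb tau)ᶜ := Finset.mem_powerset.mp hR'
        rw [Finset.mem_coe, Finset.mem_filter]
        refine ⟨Finset.mem_univ _, Finset.subset_union_left, ?_⟩
        rw [Finset.disjoint_union_right]
        refine ⟨(hdisj tau htau).symm, ?_⟩
        rw [Finset.disjoint_left]
        intro x hx hx'
        have := hR'' hx'
        rw [Finset.mem_compl] at this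
        exact this (Finset.mem_union_right _ hx)
      · intro R1 hR1 R2 hR2 h
        have h1 : Disjoint tau R1 := by
          rw [Finset.disjoint_left]
          intro x hx hx'
          have := (Finset.mem_powerset.mp hR1) hx'
          rw [Finset.mem_compl] at this
          exact this (Finset.mem_union_left _ hx)
        have h2 : Disjoint tau R2 := by
          rw [Finset.disjoint_left]
          intro x hx hx'
          have := (Finset.mem_powerset.mp hR2) hx'
          rw [Finset.mem_compl] at this
          exact this (Finset.mem_union_left _ hx)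
        have e1 := Finset.union_sdiff_cancel_left h1
        have e2 := Finset.union_sdiff_cancel_left h2
        have h' : tau ∪ R1 = tau ∪ R2 := h
        rw [← e1, ← e2, h']
    have hcard : ((tau ∪ Nb tau)ᶜ).powerset.card = 2 ^ (n - (tau.card + (Nb tau).card)) := by
      rw [Finset.card_powerset, Finset.card_compl, Fintype.card_fin,
        Finset.card_union_of_disjoint (hdisj tau htau)]
    have hk : tau.card + (Nb tau).card ≤ n := by
      have := Finset.card_le_univ (tau ∪ Nb tau)
      rw [Fintype.card_fin, Finset.card_union_of_disjoint (hdisj tau htau)] at this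
      exact this
    have hpow : 2 ^ n ≤ 2 ^ t * 2 ^ (n - (tau.card + (Nb tau).card)) := by
      rw [← pow_add]
      exact Nat.pow_le_pow_right (by norm_num) (by have := ht tau htau; omega)
    calc 2 ^ n ≤ 2 ^ t * 2 ^ (n - (tau.card + (Nb tau).card)) := hpow
      _ = 2 ^ t * ((tau ∪ Nb tau)ᶜ).powerset.card := by rw [hcard]
      _ ≤ 2 ^ t * _ := Nat.mul_le_mul_left _ hle
  -- double counting
  have dc := Finset.sum_card_bipartiteAbove_eq_sum_card_bipartiteBelow
    (s := VV) (t := (Finset.univ : Finset (Finset (Fin n))))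
    (fun tau R => tau ⊆ R ∧ Disjoint (Nb tau) R)
  have hR : ∀ R ∈ (Finset.univ : Finset (Finset (Fin n))),
      ((VV.bipartiteBelow (fun tau R => tau ⊆ R ∧ Disjoint (Nb tau) R) R).card : ℝ) ≤ B := by
    intro R _
    apply hB R
    · intro tau htau
      exact (Finset.mem_filter.mp htau).1
    · intro tau htau
      exact (Finset.mem_filter.mp htau).2
  have hsum1 : (VV.card : ℝ) * 2 ^ n ≤ 2 ^ t * ∑ tau ∈ VV,
      (((Finset.univ : Finset (Finset (Fin n))).bipartiteAbove
        (fun tau R => tau ⊆ R ∧ Disjoint (Nb tau) R) tau).card : ℝ) := by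
    rw [Finset.mul_sum]
    calc (VV.card : ℝ) * 2 ^ n = ∑ _tau ∈ VV, (2 : ℝ) ^ n := by
          rw [Finset.sum_const, nsmul_eq_mul]
      _ ≤ ∑ tau ∈ VV, (2 : ℝ) ^ t *
          (((Finset.univ : Finset (Finset (Fin n))).bipartiteAbove
            (fun tau R => tau ⊆ R ∧ Disjoint (Nb tau) R) tau).card : ℝ) := by
          refine Finset.sum_le_sum (fun tau htau => ?_)
          have := count1 tau htau
          have h' : ((2 ^ n : ℕ) : ℝ) ≤ ((2 ^ t *
              ((Finset.univ : Finset (Finset (Fin n))).filter
                (fun R => tau ⊆ R ∧ Disjoint (Nb tau) R)).card : ℕ) : ℝ) := by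
            exact_mod_cast this
          push_cast at h'
          exact h'
  have hsum2 : ∑ tau ∈ VV,
      (((Finset.univ : Finset (Finset (Fin n))).bipartiteAbove
        (fun tau R => tau ⊆ R ∧ Disjoint (Nb tau) R) tau).card : ℝ)
      ≤ 2 ^ n * B := by
    have dc' : ∑ tau ∈ VV,
        (((Finset.univ : Finset (Finset (Fin n))).bipartiteAbove
          (fun tau R => tau ⊆ R ∧ Disjoint (Nb tau) R) tau).card : ℝ)
        = ∑ R ∈ (Finset.univ : Finset (Finset (Fin n))),
          ((VV.bipartiteBelow (fun tau R => tau ⊆ R ∧ Disjoint (Nb tau) R) R).card : ℝ) := by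
      exact_mod_cast congrArg (Nat.cast : ℕ → ℝ) dc
    rw [dc']
    calc ∑ R ∈ (Finset.univ : Finset (Finset (Fin n))),
          ((VV.bipartiteBelow (fun tau R => tau ⊆ R ∧ Disjoint (Nb tau) R) R).card : ℝ)
        ≤ ∑ _R ∈ (Finset.univ : Finset (Finset (Fin n))), B := Finset.sum_le_sum hR
      _ = 2 ^ n * B := by
          rw [Finset.sum_const, nsmul_eq_mul, Finset.card_univ, Fintype.card_finset,
            Fintype.card_fin]
          push_cast
          ring
  have h2n : (0 : ℝ) < 2 ^ n := by positivity
  have h2t : (0 : ℝ) ≤ 2 ^ t := by positivity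
  have hfin : (VV.card : ℝ) * 2 ^ n ≤ (2 ^ t * B) * 2 ^ n := by
    calc (VV.card : ℝ) * 2 ^ n ≤ 2 ^ t * ∑ tau ∈ VV,
          (((Finset.univ : Finset (Finset (Fin n))).bipartiteAbove
            (fun tau R => tau ⊆ R ∧ Disjoint (Nb tau) R) tau).card : ℝ) := hsum1
      _ ≤ 2 ^ t * (2 ^ n * B) := mul_le_mul_of_nonneg_left hsum2 h2t
      _ = (2 ^ t * B) * 2 ^ n := by ring
  exact le_of_mul_le_mul_right hfin h2n

end Vale.Agent.Helper23.KKAveraging
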