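import Mathlib

namespace Vale.Agent.Helper23.KKAveraging

/-- `(K+1)^K ≤ 3 * K^K` for `K ≥ 1`. -/
theorem succ_pow_le_three_mul (K : ℕ) (hK : 1 ≤ K) : (K + 1) ^ K ≤ 3 * K ^ K := by
  have hKpos : (0 : ℝ) < K := by exact_mod_cast hK
  have h1 : (1 + 1 / (K : ℝ)) ≤ Real.exp (1 / (K : ℝ)) := by
    have := Real.add_one_le_exp (1 / (K : ℝ))
    linarith
  have h2 : (1 + 1 / (K : ℝ)) ^ K ≤ Real.exp (1 / (K : ℝ)) ^ K :=
    pow_le_pow_left₀ (by positivity) h1 K
  have h3 : Real.exp (1 / (K : ℝ)) ^ K = Real.exp 1 := by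
    rw [← Real.exp_nat_mul]
    congr 1
    field_simp
  have h4 : (1 + 1 / (K : ℝ)) ^ K ≤ 3 := by
    rw [h3] at h2
    exact le_trans h2 (le_of_lt Real.exp_one_lt_three)
  have h5 : ((K : ℝ) + 1) ^ K = (K : ℝ) ^ K * (1 + 1 / (K : ℝ)) ^ K := by
    rw [← mul_pow]
    congr 1
    field_simp
  have h6 : ((K : ℝ) + 1) ^ K ≤ 3 * (K : ℝ) ^ K := by
    rw [h5]
    have hp : (0 : ℝ) ≤ (K : ℝ) ^ K := by positivity
    nlinarith
  exact_mod_cast h6

/-- `(K+1)^b ≤ 3^v * K^b` whenever `b ≤ K * v` and `K ≥ 1`. -/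
theorem succ_pow_le (K v b : ℕ) (hK : 1 ≤ K) (hb : b ≤ K * v) :
    (K + 1) ^ b ≤ 3 ^ v * K ^ b := by
  have h1 := succ_pow_le_three_mul K hK
  have h2 : (K + 1) ^ b * K ^ (K * v - b) ≤ 3 ^ v * K ^ b * K ^ (K * v - b) := by
    calc (K + 1) ^ b * K ^ (K * v - b) ≤ (K + 1) ^ b * (K + 1) ^ (K * v - b) :=
          Nat.mul_le_mul_left _ (Nat.pow_le_pow_left (by omega) _)
      _ = (K + 1) ^ (K * v) := by
          rw [← pow_add]
          congr 1
          omega
      _ = ((K + 1) ^ K) ^ v := by rw [pow_mul]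
      _ ≤ (3 * K ^ K) ^ v := Nat.pow_le_pow_left h1 v
      _ = 3 ^ v * K ^ (K * v) := by rw [mul_pow, ← pow_mul]
      _ = 3 ^ v * K ^ b * K ^ (K * v - b) := by
          rw [mul_assoc, ← pow_add]
          congr 2
          omega
  exact Nat.le_of_mul_le_mul_right h2 (by positivity)

/-- Averaging over colourings with `K + 1` colours: if every member `tau` of `VV` has `v`
elements and a forbidden set `Nb tau` of at most `K * v` elements disjoint from it, and for
every red set `R` at most `B` members of `VV` lie inside `R` with forbidden set disjoint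
from `R`, then `VV` has at most `(3 (K + 1)) ^ v * B` members. -/
theorem averagingK {n : ℕ} (VV : Finset (Finset (Fin n)))
    (Nb : Finset (Fin n) → Finset (Fin n)) (K v : ℕ) (hK : 1 ≤ K) (B : ℝ)
    (hdisj : ∀ τ ∈ VV, Disjoint τ (Nb τ)) (hcard : ∀ τ ∈ VV, τ.card = v)
    (hnb : ∀ τ ∈ VV, (Nb τ).card ≤ K * v)
    (hB : ∀ (R : Finset (Fin n)) (DD : Finset (Finset (Fin n))), DD ⊆ VV →
      (∀ τ ∈ DD, τ ⊆ R ∧ Disjoint (Nb τ) R) → (DD.card : ℝ) ≤ B) :
    (VV.card : ℝ) ≤ (3 * ((K : ℝ) + 1)) ^ v * B := by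
  classical
  -- the red set of a colouring
  let Rof : (Fin n → Fin (K + 1)) → Finset (Fin n) :=
    fun χ => Finset.univ.filter (fun a => χ a = 0)
  -- for a fixed member, many colourings are good
  have count1 : ∀ τ ∈ VV, (K + 1) ^ n ≤ (3 * (K + 1)) ^ v *
      ((Finset.univ : Finset (Fin n → Fin (K + 1))).filter
        (fun χ => τ ⊆ Rof χ ∧ Disjoint (Nb τ) (Rof χ))).card := by
    intro τ hτ
    let S : Fin n → Finset (Fin (K + 1)) :=
      fun a => if a ∈ τ then {0} else if a ∈ Nb τ then Finset.univ.erase 0 else Finset.univ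
    have hle : (Fintype.piFinset S).card ≤
        ((Finset.univ : Finset (Fin n → Fin (K + 1))).filter
          (fun χ => τ ⊆ Rof χ ∧ Disjoint (Nb τ) (Rof χ))).card := by
      apply Finset.card_le_card
      intro χ hχ
      rw [Fintype.mem_piFinset] at hχ
      rw [Finset.mem_filter]
      refine ⟨Finset.mem_univ _, ?_, ?_⟩
      · intro a ha
        have h := hχ a
        simp only [S, if_pos ha, Finset.mem_singleton] at h
        simp only [Rof, Finset.mem_filter, Finset.mem_univ, true_and]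
        exact h
      · rw [Finset.disjoint_left]
        intro a ha ha'
        have hna : a ∉ τ := fun h => (Finset.disjoint_left.mp (hdisj τ hτ)) h ha
        have h := hχ a
        simp only [S, if_neg hna, if_pos ha, Finset.mem_erase] at h
        simp only [Rof, Finset.mem_filter, Finset.mem_univ, true_and] at ha'
        exact h.1 ha'
    have hScard : ∀ a, (S a).card = if a ∈ τ then 1 else if a ∈ Nb τ then K else K + 1 := by
      intro a
      by_cases h1 : a ∈ τ
      · simp only [S, if_pos h1, Finset.card_singleton]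
      · by_cases h2 : a ∈ Nb τ
        · simp only [S, if_neg h1, if_pos h2]
          rw [Finset.card_erase_of_mem (Finset.mem_univ _), Finset.card_univ, Fintype.card_fin]
          rfl
        · simp only [S, if_neg h1, if_neg h2, Finset.card_univ, Fintype.card_fin]
    have hf1 : (Finset.univ.filter (fun a : Fin n => a ∉ τ)).filter (fun a => a ∈ Nb τ)
        = Nb τ := by
      ext a
      simp only [Finset.mem_filter, Finset.mem_univ, true_and]
      constructor
      · exact fun h => h.2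
      · exact fun h => ⟨fun h' => (Finset.disjoint_left.mp (hdisj τ hτ)) h' h, h⟩
    have hf2 : (Finset.univ.filter (fun a : Fin n => a ∉ τ)).filter (fun a => a ∉ Nb τ)
        = (τ ∪ Nb τ)ᶜ := by
      ext a
      simp only [Finset.mem_filter, Finset.mem_univ, true_and, Finset.mem_compl,
        Finset.mem_union, not_or]
    have hprod : (Fintype.piFinset S).card
        = K ^ (Nb τ).card * (K + 1) ^ (n - (v + (Nb τ).card)) := by
      rw [Fintype.card_piFinset]
      simp only [hScard]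
      rw [Finset.prod_ite, Finset.prod_ite, Finset.prod_const, Finset.prod_const,
        Finset.prod_const, one_pow, one_mul, hf1, hf2, Finset.card_compl, Fintype.card_fin,
        Finset.card_union_of_disjoint (hdisj τ hτ), hcard τ hτ]
    have hk : v + (Nb τ).card ≤ n := by
      have := Finset.card_le_univ (τ ∪ Nb τ)
      rw [Fintype.card_fin, Finset.card_union_of_disjoint (hdisj τ hτ), hcard τ hτ] at this
      exact this
    have hkey := succ_pow_le K v (Nb τ).card hK (hnb τ hτ)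
    have hpow : (K + 1) ^ n ≤ (3 * (K + 1)) ^ v *
        (K ^ (Nb τ).card * (K + 1) ^ (n - (v + (Nb τ).card))) := by
      have hn : n = v + (Nb τ).card + (n - (v + (Nb τ).card)) := by omega
      calc (K + 1) ^ n = (K + 1) ^ (v + (Nb τ).card + (n - (v + (Nb τ).card))) := by
            rw [← hn]
        _ = (K + 1) ^ v * (K + 1) ^ (Nb τ).card * (K + 1) ^ (n - (v + (Nb τ).card)) := by
            rw [pow_add, pow_add]
        _ ≤ (K + 1) ^ v * (3 ^ v * K ^ (Nb τ).card) * (K + 1) ^ (n - (v + (Nb τ).card)) :=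
            Nat.mul_le_mul_right _ (Nat.mul_le_mul_left _ hkey)
        _ = (3 * (K + 1)) ^ v * (K ^ (Nb τ).card * (K + 1) ^ (n - (v + (Nb τ).card))) := by
            rw [mul_pow]
            ring
    calc (K + 1) ^ n ≤ (3 * (K + 1)) ^ v *
          (K ^ (Nb τ).card * (K + 1) ^ (n - (v + (Nb τ).card))) := hpow
      _ = (3 * (K + 1)) ^ v * (Fintype.piFinset S).card := by rw [hprod]
      _ ≤ (3 * (K + 1)) ^ v * _ := Nat.mul_le_mul_left _ hle
  -- double counting
  have dc := Finset.sum_card_bipartiteAbove_eq_sum_card_bipartiteBelow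
    (s := VV) (t := (Finset.univ : Finset (Fin n → Fin (K + 1))))
    (fun τ χ => τ ⊆ Rof χ ∧ Disjoint (Nb τ) (Rof χ))
  have hR : ∀ χ ∈ (Finset.univ : Finset (Fin n → Fin (K + 1))),
      ((VV.bipartiteBelow (fun τ χ => τ ⊆ Rof χ ∧ Disjoint (Nb τ) (Rof χ)) χ).card : ℝ)
        ≤ B := by
    intro χ _
    apply hB (Rof χ)
    · intro τ hτ
      exact (Finset.mem_filter.mp hτ).1
    · intro τ hτ
      exact (Finset.mem_filter.mp hτ).2
  have hsum1 : (VV.card : ℝ) * ((K : ℝ) + 1) ^ n ≤ (3 * ((K : ℝ) + 1)) ^ v * ∑ τ ∈ VV,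
      (((Finset.univ : Finset (Fin n → Fin (K + 1))).bipartiteAbove
        (fun τ χ => τ ⊆ Rof χ ∧ Disjoint (Nb τ) (Rof χ)) τ).card : ℝ) := by
    rw [Finset.mul_sum]
    calc (VV.card : ℝ) * ((K : ℝ) + 1) ^ n = ∑ _τ ∈ VV, ((K : ℝ) + 1) ^ n := by
          rw [Finset.sum_const, nsmul_eq_mul]
      _ ≤ ∑ τ ∈ VV, (3 * ((K : ℝ) + 1)) ^ v *
          (((Finset.univ : Finset (Fin n → Fin (K + 1))).bipartiteAbove
            (fun τ χ => τ ⊆ Rof χ ∧ Disjoint (Nb τ) (Rof χ)) τ).card : ℝ) := by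
          refine Finset.sum_le_sum (fun τ hτ => ?_)
          have := count1 τ hτ
          have h' : (((K + 1) ^ n : ℕ) : ℝ) ≤ (((3 * (K + 1)) ^ v *
              ((Finset.univ : Finset (Fin n → Fin (K + 1))).filter
                (fun χ => τ ⊆ Rof χ ∧ Disjoint (Nb τ) (Rof χ))).card : ℕ) : ℝ) := by
            exact_mod_cast this
          push_cast at h'
          exact h'
  have hsum2 : ∑ τ ∈ VV,
      (((Finset.univ : Finset (Fin n → Fin (K + 1))).bipartiteAbove
        (fun τ χ => τ ⊆ Rof χ ∧ Disjoint (Nb τ) (Rof χ)) τ).card : ℝ)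
      ≤ ((K : ℝ) + 1) ^ n * B := by
    have dc' : ∑ τ ∈ VV,
        (((Finset.univ : Finset (Fin n → Fin (K + 1))).bipartiteAbove
          (fun τ χ => τ ⊆ Rof χ ∧ Disjoint (Nb τ) (Rof χ)) τ).card : ℝ)
        = ∑ χ ∈ (Finset.univ : Finset (Fin n → Fin (K + 1))),
          ((VV.bipartiteBelow (fun τ χ => τ ⊆ Rof χ ∧ Disjoint (Nb τ) (Rof χ)) χ).card : ℝ) := by
      exact_mod_cast congrArg (Nat.cast : ℕ → ℝ) dc
    rw [dc']
    calc ∑ χ ∈ (Finset.univ : Finset (Fin n → Fin (K + 1))),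
          ((VV.bipartiteBelow (fun τ χ => τ ⊆ Rof χ ∧ Disjoint (Nb τ) (Rof χ)) χ).card : ℝ)
        ≤ ∑ _χ ∈ (Finset.univ : Finset (Fin n → Fin (K + 1))), B := Finset.sum_le_sum hR
      _ = ((K : ℝ) + 1) ^ n * B := by
          rw [Finset.sum_const, nsmul_eq_mul, Finset.card_univ, Fintype.card_fun,
            Fintype.card_fin, Fintype.card_fin]
          push_cast
          ring
  have hKn : (0 : ℝ) < ((K : ℝ) + 1) ^ n := by positivity
  have h3 : (0 : ℝ) ≤ (3 * ((K : ℝ) + 1)) ^ v := by positivity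
  have hfin : (VV.card : ℝ) * ((K : ℝ) + 1) ^ n
      ≤ ((3 * ((K : ℝ) + 1)) ^ v * B) * ((K : ℝ) + 1) ^ n := by
    calc (VV.card : ℝ) * ((K : ℝ) + 1) ^ n ≤ (3 * ((K : ℝ) + 1)) ^ v * ∑ τ ∈ VV,
          (((Finset.univ : Finset (Fin n → Fin (K + 1))).bipartiteAbove
            (fun τ χ => τ ⊆ Rof χ ∧ Disjoint (Nb τ) (Rof χ)) τ).card : ℝ) := hsum1
      _ ≤ (3 * ((K : ℝ) + 1)) ^ v * (((K : ℝ) + 1) ^ n * B) :=
          mul_le_mul_of_nonneg_left hsum2 h3
      _ = ((3 * ((K : ℝ) + 1)) ^ v * B) * ((K : ℝ) + 1) ^ n := by ring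
  exact le_of_mul_le_mul_right hfin hKn

end Vale.Agent.Helper23.KKAveraging
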