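import Mathlib
import Vale.Agent.Helper23.KKAveragingK

namespace Vale.Agent.Helper23.KKAveraging

/-- Averaging over colourings with `K + 1` colours of an arbitrary finite ground set, for a
family indexed by an arbitrary type: if every index `i` of `VV` has a set `S i` of `v`
elements and a forbidden set `Nb i` of at most `K * v` elements disjoint from it, and for
every red set `R` at most `B` indices of `VV` have `S i` inside `R` and `Nb i` disjoint
from `R`, then `VV` has at most `(3 (K + 1)) ^ v * B` members. -/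
theorem averaging_idx {α ι : Type*} [Fintype α] [DecidableEq α] (K v : ℕ) (hK : 1 ≤ K)
    (VV : Finset ι) (S Nb : ι → Finset α) (B : ℝ)
    (hdisj : ∀ i ∈ VV, Disjoint (S i) (Nb i)) (hcard : ∀ i ∈ VV, (S i).card = v)
    (hnb : ∀ i ∈ VV, (Nb i).card ≤ K * v)
    (hB : ∀ (R : Finset α) (DD : Finset ι), DD ⊆ VV →
      (∀ i ∈ DD, S i ⊆ R ∧ Disjoint (Nb i) R) → (DD.card : ℝ) ≤ B) :
    (VV.card : ℝ) ≤ (3 * ((K : ℝ) + 1)) ^ v * B := by
  classical
  set n : ℕ := Fintype.card α with hn_def
  -- the red set of a colouring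
  let Rof : (α → Fin (K + 1)) → Finset α :=
    fun χ => Finset.univ.filter (fun a => χ a = 0)
  -- for a fixed member, many colourings are good
  have count1 : ∀ i ∈ VV, (K + 1) ^ n ≤ (3 * (K + 1)) ^ v *
      ((Finset.univ : Finset (α → Fin (K + 1))).filter
        (fun χ => S i ⊆ Rof χ ∧ Disjoint (Nb i) (Rof χ))).card := by
    intro i hi
    let T : α → Finset (Fin (K + 1)) :=
      fun a => if a ∈ S i then {0} else if a ∈ Nb i then Finset.univ.erase 0 else Finset.univ
    have hle : (Fintype.piFinset T).card ≤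
        ((Finset.univ : Finset (α → Fin (K + 1))).filter
          (fun χ => S i ⊆ Rof χ ∧ Disjoint (Nb i) (Rof χ))).card := by
      apply Finset.card_le_card
      intro χ hχ
      rw [Fintype.mem_piFinset] at hχ
      rw [Finset.mem_filter]
      refine ⟨Finset.mem_univ _, ?_, ?_⟩
      · intro a ha
        have h := hχ a
        simp only [T, if_pos ha, Finset.mem_singleton] at h
        simp only [Rof, Finset.mem_filter, Finset.mem_univ, true_and]
        exact h
      · rw [Finset.disjoint_left]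
        intro a ha ha'
        have hna : a ∉ S i := fun h => (Finset.disjoint_left.mp (hdisj i hi)) h ha
        have h := hχ a
        simp only [T, if_neg hna, if_pos ha, Finset.mem_erase] at h
        simp only [Rof, Finset.mem_filter, Finset.mem_univ, true_and] at ha'
        exact h.1 ha'
    have hTcard : ∀ a, (T a).card = if a ∈ S i then 1 else if a ∈ Nb i then K else K + 1 := by
      intro a
      by_cases h1 : a ∈ S i
      · simp only [T, if_pos h1, Finset.card_singleton]
      · by_cases h2 : a ∈ Nb i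
        · simp only [T, if_neg h1, if_pos h2]
          rw [Finset.card_erase_of_mem (Finset.mem_univ _), Finset.card_univ, Fintype.card_fin]
          rfl
        · simp only [T, if_neg h1, if_neg h2, Finset.card_univ, Fintype.card_fin]
    have hf1 : (Finset.univ.filter (fun a : α => a ∉ S i)).filter (fun a => a ∈ Nb i)
        = Nb i := by
      ext a
      simp only [Finset.mem_filter, Finset.mem_univ, true_and]
      constructor
      · exact fun h => h.2
      · exact fun h => ⟨fun h' => (Finset.disjoint_left.mp (hdisj i hi)) h' h, h⟩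
    have hf2 : (Finset.univ.filter (fun a : α => a ∉ S i)).filter (fun a => a ∉ Nb i)
        = (S i ∪ Nb i)ᶜ := by
      ext a
      simp only [Finset.mem_filter, Finset.mem_univ, true_and, Finset.mem_compl,
        Finset.mem_union, not_or]
    have hprod : (Fintype.piFinset T).card
        = K ^ (Nb i).card * (K + 1) ^ (n - (v + (Nb i).card)) := by
      rw [Fintype.card_piFinset]
      simp only [hTcard]
      rw [Finset.prod_ite, Finset.prod_ite, Finset.prod_const, Finset.prod_const,
        Finset.prod_const, one_pow, one_mul, hf1, hf2, Finset.card_compl,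
        Finset.card_union_of_disjoint (hdisj i hi), hcard i hi]
    have hk : v + (Nb i).card ≤ n := by
      have := Finset.card_le_univ (S i ∪ Nb i)
      rw [Finset.card_union_of_disjoint (hdisj i hi), hcard i hi] at this
      exact this
    have hkey := succ_pow_le K v (Nb i).card hK (hnb i hi)
    have hpow : (K + 1) ^ n ≤ (3 * (K + 1)) ^ v *
        (K ^ (Nb i).card * (K + 1) ^ (n - (v + (Nb i).card))) := by
      have hn : n = v + (Nb i).card + (n - (v + (Nb i).card)) := by omega
      calc (K + 1) ^ n = (K + 1) ^ (v + (Nb i).card + (n - (v + (Nb i).card))) := by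
            rw [← hn]
        _ = (K + 1) ^ v * (K + 1) ^ (Nb i).card * (K + 1) ^ (n - (v + (Nb i).card)) := by
            rw [pow_add, pow_add]
        _ ≤ (K + 1) ^ v * (3 ^ v * K ^ (Nb i).card) * (K + 1) ^ (n - (v + (Nb i).card)) :=
            Nat.mul_le_mul_right _ (Nat.mul_le_mul_left _ hkey)
        _ = (3 * (K + 1)) ^ v * (K ^ (Nb i).card * (K + 1) ^ (n - (v + (Nb i).card))) := by
            rw [mul_pow]
            ring
    calc (K + 1) ^ n ≤ (3 * (K + 1)) ^ v *
          (K ^ (Nb i).card * (K + 1) ^ (n - (v + (Nb i).card))) := hpow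
      _ = (3 * (K + 1)) ^ v * (Fintype.piFinset T).card := by rw [hprod]
      _ ≤ (3 * (K + 1)) ^ v * _ := Nat.mul_le_mul_left _ hle
  -- double counting
  have dc := Finset.sum_card_bipartiteAbove_eq_sum_card_bipartiteBelow
    (s := VV) (t := (Finset.univ : Finset (α → Fin (K + 1))))
    (fun i χ => S i ⊆ Rof χ ∧ Disjoint (Nb i) (Rof χ))
  have hR : ∀ χ ∈ (Finset.univ : Finset (α → Fin (K + 1))),
      ((VV.bipartiteBelow (fun i χ => S i ⊆ Rof χ ∧ Disjoint (Nb i) (Rof χ)) χ).card : ℝ)
        ≤ B := by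
    intro χ _
    apply hB (Rof χ)
    · intro i hi
      exact (Finset.mem_filter.mp hi).1
    · intro i hi
      exact (Finset.mem_filter.mp hi).2
  have hsum1 : (VV.card : ℝ) * ((K : ℝ) + 1) ^ n ≤ (3 * ((K : ℝ) + 1)) ^ v * ∑ i ∈ VV,
      (((Finset.univ : Finset (α → Fin (K + 1))).bipartiteAbove
        (fun i χ => S i ⊆ Rof χ ∧ Disjoint (Nb i) (Rof χ)) i).card : ℝ) := by
    rw [Finset.mul_sum]
    calc (VV.card : ℝ) * ((K : ℝ) + 1) ^ n = ∑ _i ∈ VV, ((K : ℝ) + 1) ^ n := by
          rw [Finset.sum_const, nsmul_eq_mul]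
      _ ≤ ∑ i ∈ VV, (3 * ((K : ℝ) + 1)) ^ v *
          (((Finset.univ : Finset (α → Fin (K + 1))).bipartiteAbove
            (fun i χ => S i ⊆ Rof χ ∧ Disjoint (Nb i) (Rof χ)) i).card : ℝ) := by
          refine Finset.sum_le_sum (fun i hi => ?_)
          have := count1 i hi
          have h' : (((K + 1) ^ n : ℕ) : ℝ) ≤ (((3 * (K + 1)) ^ v *
              ((Finset.univ : Finset (α → Fin (K + 1))).filter
                (fun χ => S i ⊆ Rof χ ∧ Disjoint (Nb i) (Rof χ))).card : ℕ) : ℝ) := by
            exact_mod_cast this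
          push_cast at h'
          exact h'
  have hsum2 : ∑ i ∈ VV,
      (((Finset.univ : Finset (α → Fin (K + 1))).bipartiteAbove
        (fun i χ => S i ⊆ Rof χ ∧ Disjoint (Nb i) (Rof χ)) i).card : ℝ)
      ≤ ((K : ℝ) + 1) ^ n * B := by
    have dc' : ∑ i ∈ VV,
        (((Finset.univ : Finset (α → Fin (K + 1))).bipartiteAbove
          (fun i χ => S i ⊆ Rof χ ∧ Disjoint (Nb i) (Rof χ)) i).card : ℝ)
        = ∑ χ ∈ (Finset.univ : Finset (α → Fin (K + 1))),
          ((VV.bipartiteBelow (fun i χ => S i ⊆ Rof χ ∧ Disjoint (Nb i) (Rof χ)) χ).card : ℝ) := by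
      exact_mod_cast congrArg (Nat.cast : ℕ → ℝ) dc
    rw [dc']
    calc ∑ χ ∈ (Finset.univ : Finset (α → Fin (K + 1))),
          ((VV.bipartiteBelow (fun i χ => S i ⊆ Rof χ ∧ Disjoint (Nb i) (Rof χ)) χ).card : ℝ)
        ≤ ∑ _χ ∈ (Finset.univ : Finset (α → Fin (K + 1))), B := Finset.sum_le_sum hR
      _ = ((K : ℝ) + 1) ^ n * B := by
          rw [Finset.sum_const, nsmul_eq_mul, Finset.card_univ, Fintype.card_fun,
            Fintype.card_fin]
          push_cast
          ring
  have hKn : (0 : ℝ) < ((K : ℝ) + 1) ^ n := by positivity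
  have h3 : (0 : ℝ) ≤ (3 * ((K : ℝ) + 1)) ^ v := by positivity
  have hfin : (VV.card : ℝ) * ((K : ℝ) + 1) ^ n
      ≤ ((3 * ((K : ℝ) + 1)) ^ v * B) * ((K : ℝ) + 1) ^ n := by
    calc (VV.card : ℝ) * ((K : ℝ) + 1) ^ n ≤ (3 * ((K : ℝ) + 1)) ^ v * ∑ i ∈ VV,
          (((Finset.univ : Finset (α → Fin (K + 1))).bipartiteAbove
            (fun i χ => S i ⊆ Rof χ ∧ Disjoint (Nb i) (Rof χ)) i).card : ℝ) := hsum1
      _ ≤ (3 * ((K : ℝ) + 1)) ^ v * (((K : ℝ) + 1) ^ n * B) :=
          mul_le_mul_of_nonneg_left hsum2 h3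
      _ = ((3 * ((K : ℝ) + 1)) ^ v * B) * ((K : ℝ) + 1) ^ n := by ring
  exact le_of_mul_le_mul_right hfin hKn

end Vale.Agent.Helper23.KKAveraging
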