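import Mathlib
import Vale.Agent.Helper25.KKTree

/-!
P064 (helper23): common neighbourhoods.  Under the expectation hypothesis at density `q`,
every set of `b ≥ 1` vertices of `H` has at most `max (e^2 n q^b) (b log n)` common
neighbours.  The witness subgraph is the complete bipartite graph between the set and its
common neighbourhood, which has at most `C(n,b) C(n,D)` copies in the complete graph.
-/

namespace Vale.Agent.Helper23.KKCodegree

open Finset SimpleGraph
open Vale.Agent.Helper25.KKTree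

/-- Counting the copies of `F` in the complete graph through their possible edge sets. -/
lemma copyCount_top_le_card {n : ℕ} (F : SimpleGraph (Fin n)) [DecidableRel F.Adj]
    (T : Finset (Finset (Sym2 (Fin n))))
    (hT : ∀ ψ : Fin n → Fin n, Function.Injective ψ →
      F.edgeFinset.image (Sym2.map ψ) ∈ T) :
    (⊤ : SimpleGraph (Fin n)).copyCount F ≤ T.card := by
  classical
  rw [copyCount]
  let edges : (⊤ : SimpleGraph (Fin n)).Subgraph → Finset (Sym2 (Fin n)) :=
    fun G' => Finset.univ.filter (fun z => z ∈ G'.edgeSet)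
  have key : ∀ G' : (⊤ : SimpleGraph (Fin n)).Subgraph, Nonempty (F ≃g G'.coe) →
      G'.verts = Set.univ ∧ edges G' ∈ T := by
    intro G' hG'
    obtain ⟨φ⟩ := hG'
    have hverts : G'.verts = Set.univ :=
      (set_fintype_card_eq_univ_iff _).1 (Fintype.card_congr φ.toEquiv.symm)
    refine ⟨hverts, ?_⟩
    have hψinj : Function.Injective (fun a => ((φ a : G'.verts) : Fin n)) :=
      Subtype.val_injective.comp φ.injective
    have hadj : ∀ a b, G'.Adj (φ a : Fin n) (φ b : Fin n) ↔ F.Adj a b := by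
      intro a b
      rw [← φ.map_rel_iff (a := a) (b := b)]
      rfl
    have hedges : edges G'
        = F.edgeFinset.image (Sym2.map (fun a => ((φ a : G'.verts) : Fin n))) := by
      ext z
      induction z using Sym2.ind with
      | _ u w =>
        simp only [edges, Finset.mem_filter, Finset.mem_univ, true_and, Subgraph.mem_edgeSet,
          Finset.mem_image]
        constructor
        · intro huw
          obtain ⟨a, ha⟩ := φ.surjective ⟨u, G'.edge_vert huw⟩
          obtain ⟨b, hb⟩ := φ.surjective ⟨w, G'.edge_vert huw.symm⟩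
          have hu : ((φ a : G'.verts) : Fin n) = u := by rw [ha]
          have hw : ((φ b : G'.verts) : Fin n) = w := by rw [hb]
          refine ⟨s(a, b), ?_, ?_⟩
          · rw [mem_edgeFinset, mem_edgeSet, ← hadj, hu, hw]
            exact huw
          · rw [Sym2.map_mk, hu, hw]
        · rintro ⟨z', hz', hzz⟩
          induction z' using Sym2.ind with
          | _ a b =>
            rw [mem_edgeFinset, mem_edgeSet, ← hadj] at hz'
            rw [Sym2.map_mk, Sym2.eq_iff] at hzz
            rcases hzz with ⟨h1, h2⟩ | ⟨h1, h2⟩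
            · rw [← h1, ← h2]; exact hz'
            · rw [← h1, ← h2]; exact hz'.symm
    rw [hedges]
    exact hT _ hψinj
  apply Finset.card_le_card_of_injOn edges
  · intro G' hG'
    simp only [Finset.coe_filter, Finset.mem_univ, true_and, Set.mem_ofPred_eq] at hG'
    exact (key G' hG').2
  · intro A hA B hB hAB
    simp only [Finset.coe_filter, Finset.mem_univ, true_and, Set.mem_ofPred_eq] at hA hB
    apply Subgraph.ext
    · rw [(key A hA).1, (key B hB).1]
    · funext u w
      apply propext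
      have h1 : s(u, w) ∈ edges A ↔ A.Adj u w := by
        simp only [edges, Finset.mem_filter, Finset.mem_univ, true_and, Subgraph.mem_edgeSet]
      have h2 : s(u, w) ∈ edges B ↔ B.Adj u w := by
        simp only [edges, Finset.mem_filter, Finset.mem_univ, true_and, Subgraph.mem_edgeSet]
      rw [← h1, ← h2, hAB]

/-- The complete bipartite graph between two vertex sets. -/
def bip {n : ℕ} (B Wn : Finset (Fin n)) : SimpleGraph (Fin n) where
  Adj a b := a ≠ b ∧ ((a ∈ B ∧ b ∈ Wn) ∨ (b ∈ B ∧ a ∈ Wn))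
  symm := ⟨fun _ _ h => ⟨h.1.symm, h.2.symm⟩⟩
  loopless := ⟨fun _ h => h.1 rfl⟩

instance bipDecidable {n : ℕ} (B Wn : Finset (Fin n)) : DecidableRel (bip B Wn).Adj :=
  fun a b => inferInstanceAs (Decidable (a ≠ b ∧ ((a ∈ B ∧ b ∈ Wn) ∨ (b ∈ B ∧ a ∈ Wn))))

lemma bip_adj {n : ℕ} (B Wn : Finset (Fin n)) (a b : Fin n) :
    (bip B Wn).Adj a b ↔ a ≠ b ∧ ((a ∈ B ∧ b ∈ Wn) ∨ (b ∈ B ∧ a ∈ Wn)) := Iff.rfl

/-- The image of the edge set of a complete bipartite graph under an injective map. -/
lemma bip_edge_image {n : ℕ} (B Wn : Finset (Fin n)) (ψ : Fin n → Fin n)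
    (hψ : Function.Injective ψ) :
    (bip B Wn).edgeFinset.image (Sym2.map ψ) = (bip (B.image ψ) (Wn.image ψ)).edgeFinset := by
  ext z
  induction z using Sym2.ind with
  | _ x y =>
    rw [Finset.mem_image, mem_edgeFinset, mem_edgeSet, bip_adj]
    constructor
    · rintro ⟨z', hz', hzz⟩
      induction z' using Sym2.ind with
      | _ a b =>
        rw [mem_edgeFinset, mem_edgeSet, bip_adj] at hz'
        rw [Sym2.map_mk, Sym2.eq_iff] at hzz
        have hne : ψ a ≠ ψ b := fun h => hz'.1 (hψ h)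
        have hcase : (ψ a ∈ B.image ψ ∧ ψ b ∈ Wn.image ψ) ∨
            (ψ b ∈ B.image ψ ∧ ψ a ∈ Wn.image ψ) := by
          rcases hz'.2 with ⟨ha, hb⟩ | ⟨hb, ha⟩
          · exact Or.inl ⟨Finset.mem_image_of_mem ψ ha, Finset.mem_image_of_mem ψ hb⟩
          · exact Or.inr ⟨Finset.mem_image_of_mem ψ hb, Finset.mem_image_of_mem ψ ha⟩
        rcases hzz with ⟨h1, h2⟩ | ⟨h1, h2⟩
        · rw [← h1, ← h2]
          exact ⟨hne, hcase⟩
        · rw [← h1, ← h2]
          exact ⟨hne.symm, hcase.symm⟩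
    · rintro ⟨hne, hcase⟩
      rcases hcase with ⟨hx, hy⟩ | ⟨hy, hx⟩
      · obtain ⟨a, ha, rfl⟩ := Finset.mem_image.mp hx
        obtain ⟨b, hb, rfl⟩ := Finset.mem_image.mp hy
        refine ⟨s(a, b), ?_, by rw [Sym2.map_mk]⟩
        rw [mem_edgeFinset, mem_edgeSet, bip_adj]
        exact ⟨fun h => hne (by rw [h]), Or.inl ⟨ha, hb⟩⟩
      · obtain ⟨a, ha, rfl⟩ := Finset.mem_image.mp hx
        obtain ⟨b, hb, rfl⟩ := Finset.mem_image.mp hy
        refine ⟨s(a, b), ?_, by rw [Sym2.map_mk]⟩
        rw [mem_edgeFinset, mem_edgeSet, bip_adj]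
        exact ⟨fun h => hne (by rw [h]), Or.inr ⟨hb, ha⟩⟩

/-- A complete bipartite graph with sides of sizes `b` and `D` has at most `C(n,b) C(n,D)`
copies in the complete graph on `n` vertices. -/
lemma bip_copyCount_le {n : ℕ} (B Wn : Finset (Fin n)) :
    (⊤ : SimpleGraph (Fin n)).copyCount (bip B Wn) ≤ n.choose B.card * n.choose Wn.card := by
  classical
  let T : Finset (Finset (Sym2 (Fin n))) :=
    (((Finset.univ : Finset (Fin n)).powersetCard B.card) ×ˢ
      ((Finset.univ : Finset (Fin n)).powersetCard Wn.card)).image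
        (fun p => (bip p.1 p.2).edgeFinset)
  have hT : T.card ≤ n.choose B.card * n.choose Wn.card := by
    refine Finset.card_image_le.trans ?_
    rw [Finset.card_product, Finset.card_powersetCard, Finset.card_powersetCard,
      Finset.card_univ, Fintype.card_fin]
  refine le_trans (copyCount_top_le_card (bip B Wn) T ?_) hT
  intro ψ hψ
  rw [bip_edge_image B Wn ψ hψ, Finset.mem_image]
  refine ⟨(B.image ψ, Wn.image ψ), ?_, rfl⟩
  rw [Finset.mem_product, Finset.mem_powersetCard, Finset.mem_powersetCard]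
  exact ⟨⟨Finset.subset_univ _, Finset.card_image_of_injective _ hψ⟩,
    ⟨Finset.subset_univ _, Finset.card_image_of_injective _ hψ⟩⟩

/-- The number of edges of a complete bipartite graph with disjoint sides. -/
lemma bip_edge_ncard {n : ℕ} (B Wn : Finset (Fin n)) (hdisj : Disjoint B Wn) :
    (bip B Wn).edgeSet.ncard = B.card * Wn.card := by
  classical
  have h1 : (bip B Wn).edgeFinset = (B ×ˢ Wn).image (fun p => s(p.1, p.2)) := by
    ext z
    induction z using Sym2.ind with
    | _ x y =>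
      rw [mem_edgeFinset, mem_edgeSet, bip_adj, Finset.mem_image]
      constructor
      · rintro ⟨-, hcase⟩
        rcases hcase with ⟨hx, hy⟩ | ⟨hy, hx⟩
        · exact ⟨(x, y), Finset.mem_product.mpr ⟨hx, hy⟩, rfl⟩
        · exact ⟨(y, x), Finset.mem_product.mpr ⟨hy, hx⟩, Sym2.eq_swap⟩
      · rintro ⟨p, hp, hpz⟩
        rw [Finset.mem_product] at hp
        have hne : p.1 ≠ p.2 := fun h =>
          (Finset.disjoint_left.mp hdisj) hp.1 (h ▸ hp.2)
        rw [Sym2.eq_iff] at hpz
        rcases hpz with ⟨h1, h2⟩ | ⟨h1, h2⟩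
        · rw [← h1, ← h2]
          exact ⟨hne, Or.inl hp⟩
        · rw [← h1, ← h2]
          exact ⟨hne.symm, Or.inr hp⟩
  have h2 : (bip B Wn).edgeSet.ncard = (bip B Wn).edgeFinset.card := by
    rw [edgeFinset, Set.ncard_eq_toFinset_card']
  rw [h2, h1, Finset.card_image_of_injOn, Finset.card_product]
  intro p hp p' hp' hpp
  rw [Finset.mem_coe, Finset.mem_product] at hp hp'
  have hpp' : s(p.1, p.2) = s(p'.1, p'.2) := hpp
  rw [Sym2.eq_iff] at hpp'
  rcases hpp' with ⟨h1, h2⟩ | ⟨h1, h2⟩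
  · exact Prod.ext h1 h2
  · exact absurd hp.1 (fun h => (Finset.disjoint_left.mp hdisj) h (h1 ▸ hp'.2))

/-- The codegree bound: under the expectation hypothesis at density `q`, every set of
`b ≥ 1` vertices of `H` has at most `max (e^2 n q^b) (b log n)` common neighbours. -/
theorem codegree_le {n : ℕ} (H : SimpleGraph (Fin n)) (q : ℝ) (hq0 : 0 ≤ q)
    (hyp : ∀ F' : SimpleGraph (Fin n), F' ≤ H →
      1 ≤ ((⊤ : SimpleGraph (Fin n)).copyCount F' : ℝ) * q ^ F'.edgeSet.ncard)
    (B : Finset (Fin n)) (hB : 1 ≤ B.card) :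
    (({z : Fin n | ∀ u ∈ B, H.Adj u z}.ncard : ℕ) : ℝ)
      ≤ max (Real.exp 2 * n * q ^ B.card) (B.card * Real.log n) := by
  classical
  obtain ⟨u0, -⟩ : B.Nonempty := Finset.card_pos.mp hB
  have hn1 : 1 ≤ n := by
    have := u0.2
    omega
  have hnpos : (0 : ℝ) < n := by exact_mod_cast hn1
  set Wn : Finset (Fin n) := Finset.univ.filter (fun z => ∀ u ∈ B, H.Adj u z) with hWn
  have hD : {z : Fin n | ∀ u ∈ B, H.Adj u z}.ncard = Wn.card := by
    rw [← Set.ncard_coe_finset]
    congr 1
    ext z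
    simp [hWn]
  rw [hD]
  set D := Wn.card with hDdef
  set b := B.card with hbdef
  by_cases hle : (D : ℝ) ≤ Real.exp 2 * n * q ^ b
  · exact hle.trans (le_max_left _ _)
  rw [not_le] at hle
  refine le_trans ?_ (le_max_right _ _)
  have hdisj : Disjoint B Wn := by
    rw [Finset.disjoint_left]
    intro z hzB hzW
    exact H.loopless.irrefl z ((Finset.mem_filter.mp hzW).2 z hzB)
  have hF'le : bip B Wn ≤ H := by
    intro a c h
    rcases h.2 with ⟨ha, hc⟩ | ⟨hc, ha⟩
    · exact (Finset.mem_filter.mp hc).2 a ha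
    · exact ((Finset.mem_filter.mp ha).2 c hc).symm
  have h1 := hyp (bip B Wn) hF'le
  rw [bip_edge_ncard B Wn hdisj] at h1
  have hcount := bip_copyCount_le B Wn
  have hqb : (0 : ℝ) ≤ q ^ b := pow_nonneg hq0 b
  have hDpos : 1 ≤ D := by
    by_contra hcon
    have h0 : D = 0 := by omega
    rw [h0] at hle
    have : (0 : ℝ) ≤ Real.exp 2 * n * q ^ b := by positivity
    simp only [Nat.cast_zero] at hle
    linarith
  have hDR : (0 : ℝ) < D := by exact_mod_cast hDpos
  have h2 : (1 : ℝ) ≤ (n : ℝ) ^ b * ((n.choose D : ℝ) * (q ^ b) ^ D) := by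
    refine h1.trans ?_
    rw [← hbdef, ← hDdef, pow_mul, ← mul_assoc]
    apply mul_le_mul_of_nonneg_right _ (pow_nonneg hqb D)
    have h3 : (((⊤ : SimpleGraph (Fin n)).copyCount (bip B Wn) : ℕ) : ℝ)
        ≤ ((n.choose b * n.choose D : ℕ) : ℝ) := by exact_mod_cast hcount
    refine h3.trans ?_
    push_cast
    apply mul_le_mul_of_nonneg_right _ (Nat.cast_nonneg _)
    exact_mod_cast Nat.choose_le_pow n b
  have h3 := choose_mul_pow_le_exp n D hDpos (q ^ b) hqb
  have h4 : Real.exp 1 * n * q ^ b / D ≤ Real.exp (-1) := by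
    rw [div_le_iff₀ hDR]
    have h5 : Real.exp 2 = Real.exp 1 * Real.exp 1 := by
      rw [← Real.exp_add]; norm_num
    have h6 : Real.exp (-1) * Real.exp 1 = 1 := by
      rw [← Real.exp_add]; norm_num
    have h7 : Real.exp 1 * (Real.exp 1 * n * q ^ b) ≤ Real.exp 1 * (Real.exp (-1) * D) := by
      calc Real.exp 1 * (Real.exp 1 * n * q ^ b) = Real.exp 2 * n * q ^ b := by rw [h5]; ring
        _ ≤ D := hle.le
        _ = Real.exp 1 * (Real.exp (-1) * D) := by
            rw [← mul_assoc, mul_comm (Real.exp 1) (Real.exp (-1)), h6, one_mul]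
    exact le_of_mul_le_mul_left h7 (Real.exp_pos 1)
  have h8 : (Real.exp 1 * n * q ^ b / D) ^ D ≤ Real.exp (-(D : ℝ)) := by
    have h9 : Real.exp (-(D : ℝ)) = Real.exp (-1) ^ D := by
      rw [← Real.exp_nat_mul]; ring_nf
    rw [h9]
    exact pow_le_pow_left₀ (by positivity) h4 D
  have h10 : (1 : ℝ) ≤ (n : ℝ) ^ b * Real.exp (-(D : ℝ)) :=
    h2.trans (mul_le_mul_of_nonneg_left (h3.trans h8) (by positivity))
  have h11 : Real.exp (D : ℝ) ≤ (n : ℝ) ^ b := by
    have h12 : Real.exp (D : ℝ) * 1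
        ≤ Real.exp (D : ℝ) * ((n : ℝ) ^ b * Real.exp (-(D : ℝ))) :=
      mul_le_mul_of_nonneg_left h10 (Real.exp_pos _).le
    have h13 : Real.exp (D : ℝ) * ((n : ℝ) ^ b * Real.exp (-(D : ℝ))) = (n : ℝ) ^ b := by
      rw [mul_comm ((n : ℝ) ^ b), ← mul_assoc, ← Real.exp_add]
      simp
    rw [h13, mul_one] at h12
    exact h12
  have h14 := Real.log_le_log (Real.exp_pos _) h11
  rw [Real.log_exp, Real.log_pow] at h14
  exact h14

end Vale.Agent.Helper23.KKCodegree
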