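import Mathlib
import Vale.Agent.Helper23.KKCodegree
import Vale.Agent.Helper25.KKForest

/-!
P064 (helper23): the counting inequality for all `d`-degenerate graphs.  If every subgraph of
`H` has expected count at least `1` in `G(n,q)`, `q ≤ c` and `log n ≤ n c^d`, then every
`d`-degenerate graph `F` satisfies `N(H,F) ≤ N(K_n,F) min(1, 55 c)^(e(F))`.
-/

namespace Vale.Agent.Helper23.KKDegenerate

open Finset SimpleGraph
open Vale.Agent.Results.P064.StarCounts
open Vale.Agent.Results.P064.StarForests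
open Vale.Agent.Helper25.KKAllGraphs
open Vale.Agent.Helper25.KKIsolated
open Vale.Agent.Helper25.KKForest
open Vale.Agent.Helper23.KKCodegree

/-- `F` is `d`-degenerate: every nonempty vertex set contains a vertex with at most `d`
neighbours inside the set. -/
def IsDegenerate {W : Type*} (F : SimpleGraph W) (d : ℕ) : Prop :=
  ∀ S : Set W, S.Nonempty → ∃ w ∈ S, (S ∩ F.neighborSet w).ncard ≤ d

lemma IsDegenerate.induce {W : Type*} [Finite W] {F : SimpleGraph W} {d : ℕ}
    (hF : IsDegenerate F d) (s : Set W) : IsDegenerate (F.induce s) d := by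
  intro S' hS'
  obtain ⟨t0, ht0⟩ := hS'
  obtain ⟨w, hw, hwd⟩ := hF (Subtype.val '' S') ⟨t0.1, t0, ht0, rfl⟩
  obtain ⟨t, ht, rfl⟩ := hw
  refine ⟨t, ht, le_trans ?_ hwd⟩
  have h1 : (Subtype.val '' (S' ∩ (F.induce s).neighborSet t)).ncard
      = (S' ∩ (F.induce s).neighborSet t).ncard :=
    Set.ncard_image_of_injective _ Subtype.val_injective
  rw [← h1]
  apply Set.ncard_le_ncard _ (Set.toFinite _)
  rintro _ ⟨a, ⟨haS, hadj⟩, rfl⟩
  exact ⟨⟨a, haS, rfl⟩, hadj⟩

/-- Removing a vertex `w`: the copies of `F` are at most `M` times the copies of `F - w`,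
where `M` bounds the common neighbourhoods of the sets of `deg w` vertices of `G`. -/
lemma card_copy_le_remove_codeg {V W : Type*} [Fintype V] [Fintype W] (G : SimpleGraph V)
    (F : SimpleGraph W) (w : W) (M : ℕ)
    (hcod : ∀ B : Finset V, B.card = (F.neighborSet w).ncard →
      {z : V | ∀ u ∈ B, G.Adj u z}.ncard ≤ M) :
    Nat.card (Copy F G) ≤ Nat.card (Copy (F.induce ({w}ᶜ : Set W)) G) * M := by
  classical
  have := finite_copy G F
  have := finite_copy G (F.induce ({w}ᶜ : Set W))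
  have : Fintype (Copy F G) := Fintype.ofFinite _
  have : Fintype (Copy (F.induce ({w}ᶜ : Set W)) G) := Fintype.ofFinite _
  let r : Copy F G → Copy (F.induce ({w}ᶜ : Set W)) G :=
    fun f => f.comp (Copy.induce F ({w}ᶜ : Set W))
  have h1 : (Finset.univ : Finset (Copy F G)).card
      = ∑ f₀ ∈ (Finset.univ : Finset (Copy (F.induce ({w}ᶜ : Set W)) G)),
          ((Finset.univ : Finset (Copy F G)).filter (fun f => r f = f₀)).card :=
    Finset.card_eq_sum_card_fiberwise (fun _ _ => Finset.mem_coe.mpr (Finset.mem_univ _))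
  have h2 : ∀ f₀ ∈ (Finset.univ : Finset (Copy (F.induce ({w}ᶜ : Set W)) G)),
      ((Finset.univ : Finset (Copy F G)).filter (fun f => r f = f₀)).card ≤ M := by
    intro f₀ _
    let Nw : Finset ↥({w}ᶜ : Set W) := Finset.univ.filter (fun a => F.Adj w a.1)
    let B₀ : Finset V := Nw.image (fun a => f₀ a)
    have hset : F.neighborSet w = Subtype.val '' (↑Nw : Set ↥({w}ᶜ : Set W)) := by
      ext a
      simp only [mem_neighborSet, Set.mem_image, Finset.mem_coe, Nw, Finset.mem_filter,
        Finset.mem_univ, true_and]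
      constructor
      · intro ha
        exact ⟨⟨a, fun h => F.ne_of_adj ha (Set.mem_singleton_iff.mp h).symm⟩, ha, rfl⟩
      · rintro ⟨a', ha', rfl⟩
        exact ha'
    have hinj : Function.Injective (fun a : ↥({w}ᶜ : Set W) => f₀ a) :=
      fun a b h => f₀.injective h
    have hB₀ : B₀.card = (F.neighborSet w).ncard := by
      show (Nw.image (fun a => f₀ a)).card = (F.neighborSet w).ncard
      rw [Finset.card_image_of_injective Nw hinj, hset,
        Set.ncard_image_of_injective _ Subtype.val_injective, Set.ncard_coe_finset]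
    rw [← Fintype.card_subtype, ← Nat.card_eq_fintype_card]
    refine le_trans ?_ (hcod B₀ hB₀)
    rw [← Nat.card_coe_set_eq]
    let ψ : {f : Copy F G // r f = f₀} → ↥{z : V | ∀ u ∈ B₀, G.Adj u z} :=
      fun f => ⟨f.1 w, by
        show ∀ u ∈ B₀, G.Adj u (f.1 w)
        intro u hu
        obtain ⟨a, ha, rfl⟩ := Finset.mem_image.mp hu
        have haw : F.Adj w a.1 := (Finset.mem_filter.mp ha).2
        have h8 : r f.1 a = f₀ a :=
          congrArg (fun k : Copy (F.induce ({w}ᶜ : Set W)) G => k a) f.2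
        have h9 : G.Adj (f.1 a.1) (f.1 w) := f.1.toHom.map_adj haw.symm
        rw [← h8]
        exact h9⟩
    apply Nat.card_le_card_of_injective ψ
    intro f g hfg
    apply Subtype.ext
    apply Copy.ext
    intro a
    by_cases ha : a = w
    · rw [ha]
      exact congrArg Subtype.val hfg
    · have ha' : a ∈ ({w}ᶜ : Set W) := ha
      have h3 : r f.1 ⟨a, ha'⟩ = r g.1 ⟨a, ha'⟩ := by rw [f.2, g.2]
      exact h3
  rw [Nat.card_eq_fintype_card, Nat.card_eq_fintype_card, ← Finset.card_univ, h1]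
  refine (Finset.sum_le_card_nsmul _ _ _ h2).trans (le_of_eq ?_)
  rw [smul_eq_mul, Finset.card_univ]

/-- Edge count after removing a vertex. -/
lemma edge_ncard_remove {W : Type*} [Fintype W] (F : SimpleGraph W) (w : W) :
    F.edgeSet.ncard = (F.induce ({w}ᶜ : Set W)).edgeSet.ncard + (F.neighborSet w).ncard := by
  classical
  have h1 : F.edgeSet.ncard = F.edgeFinset.card := by
    rw [← Set.ncard_coe_finset, coe_edgeFinset]
  have h3 : (F.neighborSet w).ncard = F.degree w := by
    rw [← card_neighborFinset_eq_degree, ← Set.ncard_coe_finset, coe_neighborFinset]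
  have h4 := F.card_edgeFinset_induce_compl_singleton w
  rw [← Set.ncard_coe_finset, coe_edgeFinset] at h4
  have h5 := F.card_edgeFinset_deleteIncidenceSet w
  have h6 : F.degree w ≤ F.edgeFinset.card := by
    rw [← card_incidenceFinset_eq_degree]
    exact Finset.card_le_card (F.incidenceFinset_subset w)
  rw [h1, h3, h4, h5]
  omega

/-- Labelled copies of a `d`-degenerate graph, given bounds `n y^b` on the common
neighbourhoods of all sets of `b ≤ d` vertices. -/
theorem labelled_degenerate {n : ℕ} (H : SimpleGraph (Fin n)) (d : ℕ) (y : ℝ) (hy : 0 ≤ y)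
    (hcod : ∀ B : Finset (Fin n), B.card ≤ d →
      (({z : Fin n | ∀ u ∈ B, H.Adj u z}.ncard : ℕ) : ℝ) ≤ n * y ^ B.card) :
    ∀ (k : ℕ) (W : Type) [Fintype W] (F : SimpleGraph W), IsDegenerate F d →
      Fintype.card W = k →
      (Nat.card (Copy F H) : ℝ) ≤ (n : ℝ) ^ k * y ^ F.edgeSet.ncard := by
  intro k
  induction k with
  | zero =>
    intro W _ F _ hcard
    have hempty : IsEmpty W := Fintype.card_eq_zero_iff.mp hcard
    have := finite_copy H F
    have hsub : Subsingleton (Copy F H) :=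
      ⟨fun f g => Copy.ext (fun a => (hempty.false a).elim)⟩
    have h1 : Nat.card (Copy F H) ≤ 1 := Finite.card_le_one_iff_subsingleton.mpr hsub
    have h2 : F.edgeSet.ncard = 0 := by
      have h3 : F.edgeSet = ∅ := by
        ext z
        induction z using Sym2.ind with
        | _ a b => exact (hempty.false a).elim
      rw [h3, Set.ncard_empty]
    rw [h2, pow_zero, pow_zero, mul_one]
    exact_mod_cast h1
  | succ k ih =>
    intro W _ F hF hcard
    classical
    obtain ⟨w, -, hw⟩ := hF Set.univ (by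
      have hne : Nonempty W := by
        rw [← Fintype.card_pos_iff, hcard]
        omega
      exact Set.univ_nonempty)
    rw [Set.univ_inter] at hw
    have hcard' : Fintype.card ↥({w}ᶜ : Set W) = k := by
      have h := Fintype.card_compl_set ({w} : Set W)
      rw [h, hcard]
      simp
    have hx0 : (0 : ℝ) ≤ (n : ℝ) * y ^ (F.neighborSet w).ncard := by positivity
    have h1 := card_copy_le_remove_codeg H F w ⌊(n : ℝ) * y ^ (F.neighborSet w).ncard⌋₊ (by
      intro B hB
      have h := hcod B (by rw [hB]; exact hw)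
      rw [hB] at h
      exact Nat.le_floor h)
    have h2 := ih ↥({w}ᶜ : Set W) (F.induce ({w}ᶜ : Set W)) (hF.induce _) hcard'
    have hedge := edge_ncard_remove F w
    have h1' : (Nat.card (Copy F H) : ℝ)
        ≤ (Nat.card (Copy (F.induce ({w}ᶜ : Set W)) H) : ℝ)
          * (⌊(n : ℝ) * y ^ (F.neighborSet w).ncard⌋₊ : ℝ) := by exact_mod_cast h1
    calc (Nat.card (Copy F H) : ℝ)
        ≤ (Nat.card (Copy (F.induce ({w}ᶜ : Set W)) H) : ℝ)
          * (⌊(n : ℝ) * y ^ (F.neighborSet w).ncard⌋₊ : ℝ) := h1'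
      _ ≤ ((n : ℝ) ^ k * y ^ (F.induce ({w}ᶜ : Set W)).edgeSet.ncard)
          * ((n : ℝ) * y ^ (F.neighborSet w).ncard) :=
          mul_le_mul h2 (Nat.floor_le hx0) (Nat.cast_nonneg _) (by positivity)
      _ = (n : ℝ) ^ (k + 1) * y ^ F.edgeSet.ncard := by
          rw [hedge, pow_succ, pow_add]
          ring

/-- `e^4 ≤ 55`. -/
lemma exp_two_sq_le : Real.exp 2 * Real.exp 2 ≤ 55 := by
  have h1 : Real.exp 1 ≤ 2.72 := by
    have := Real.exp_one_lt_d9
    linarith
  have h2 : Real.exp 2 = Real.exp 1 * Real.exp 1 := by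
    rw [← Real.exp_add]; norm_num
  have h3 : Real.exp 1 ^ 4 ≤ 2.72 ^ 4 := pow_le_pow_left₀ (Real.exp_pos 1).le h1 4
  have h4 : Real.exp 2 * Real.exp 2 = Real.exp 1 ^ 4 := by rw [h2]; ring
  rw [h4]
  refine h3.trans ?_
  norm_num

/-- The counting inequality for `d`-degenerate graphs: if every subgraph of `H` has expected
count at least `1` in `G(n,q)`, `q ≤ c` and `log n ≤ n c^d`, then every `d`-degenerate graph
`F` (arbitrary degrees, isolated vertices allowed) satisfies
`N(H,F) ≤ N(K_n,F) min(1, 55 c)^(e(F))`. -/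
theorem degenerate_count {n : ℕ} (H : SimpleGraph (Fin n)) (q : ℝ) (hq : 0 ≤ q)
    (hyp : ∀ F' : SimpleGraph (Fin n), F' ≤ H →
      1 ≤ ((⊤ : SimpleGraph (Fin n)).copyCount F' : ℝ) * q ^ F'.edgeSet.ncard)
    (d : ℕ) (c : ℝ) (hqc : q ≤ c) (hlog : Real.log n ≤ n * c ^ d)
    {W : Type} [Fintype W] (F : SimpleGraph W) (hF : IsDegenerate F d) :
    (H.copyCount F : ℝ) ≤ ((⊤ : SimpleGraph (Fin n)).copyCount F : ℝ)
      * (min 1 (55 * c)) ^ F.edgeSet.ncard := by
  classical
  have hc0 : 0 ≤ c := hq.trans hqc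
  rcases le_total 1 (55 * c) with h | h
  · rw [min_eq_left h, one_pow, mul_one]
    exact_mod_cast copyCount_mono (le_top : H ≤ ⊤) F
  rw [min_eq_right h]
  have hc1 : c ≤ 1 := by linarith
  have he2 : (2 : ℝ) ≤ Real.exp 2 := by
    have := Real.add_one_le_exp (2 : ℝ)
    linarith
  have he1 : (1 : ℝ) ≤ Real.exp 2 := by linarith
  have hy0 : (0 : ℝ) ≤ Real.exp 2 * c := by positivity
  have hcod : ∀ B : Finset (Fin n), B.card ≤ d →
      (({z : Fin n | ∀ u ∈ B, H.Adj u z}.ncard : ℕ) : ℝ) ≤ n * (Real.exp 2 * c) ^ B.card := by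
    intro B hBd
    rcases Nat.eq_zero_or_pos B.card with h0 | hpos
    · rw [h0, pow_zero, mul_one]
      have h1 : {z : Fin n | ∀ u ∈ B, H.Adj u z}.ncard ≤ (Set.univ : Set (Fin n)).ncard :=
        Set.ncard_le_ncard (Set.subset_univ _) (Set.toFinite _)
      rw [Set.ncard_univ, Nat.card_fin] at h1
      exact_mod_cast h1
    · have h1 := codegree_le H q hq hyp B hpos
      have hb0 : B.card ≠ 0 := by omega
      have hcb : (0 : ℝ) ≤ c ^ B.card := pow_nonneg hc0 _
      have hnn : (0 : ℝ) ≤ (n : ℝ) := Nat.cast_nonneg n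
      refine h1.trans (max_le ?_ ?_)
      · have hqcb : q ^ B.card ≤ c ^ B.card := pow_le_pow_left₀ hq hqc _
        have hexp : Real.exp 2 ≤ Real.exp 2 ^ B.card := le_self_pow₀ he1 hb0
        calc Real.exp 2 * n * q ^ B.card
            ≤ Real.exp 2 ^ B.card * n * c ^ B.card :=
              mul_le_mul (mul_le_mul_of_nonneg_right hexp hnn) hqcb (pow_nonneg hq _)
                (by positivity)
          _ = n * (Real.exp 2 * c) ^ B.card := by rw [mul_pow]; ring
      · have hcd : c ^ d ≤ c ^ B.card := pow_le_pow_of_le_one hc0 hc1 hBd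
        have hlog' : Real.log n ≤ n * c ^ B.card :=
          hlog.trans (mul_le_mul_of_nonneg_left hcd hnn)
        have hb2 : (B.card : ℝ) ≤ Real.exp 2 ^ B.card := by
          have h2 : (B.card : ℝ) ≤ (2 : ℝ) ^ B.card := by
            exact_mod_cast (Nat.lt_two_pow_self (n := B.card)).le
          exact h2.trans (pow_le_pow_left₀ (by norm_num) he2 _)
        calc (B.card : ℝ) * Real.log n
            ≤ (B.card : ℝ) * (n * c ^ B.card) :=
              mul_le_mul_of_nonneg_left hlog' (Nat.cast_nonneg _)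
          _ ≤ Real.exp 2 ^ B.card * (n * c ^ B.card) :=
              mul_le_mul_of_nonneg_right hb2 (by positivity)
          _ = n * (Real.exp 2 * c) ^ B.card := by rw [mul_pow]; ring
  have : Fintype (core F) := Fintype.ofFinite _
  have hlab := labelled_degenerate H d (Real.exp 2 * c) hy0 hcod (Fintype.card (core F))
    (core F) (F.induce (core F)) (hF.induce _) rfl
  have h1 : (H.labelledCopyCount (F.induce (core F)) : ℝ)
      ≤ (n : ℝ) ^ (Fintype.card (core F))
        * (Real.exp 2 * c) ^ (F.induce (core F)).edgeSet.ncard := by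
    rw [lcc_eq]
    exact hlab
  have h2 := of_labelled_bound H (Real.exp 2 * c) hy0 (F.induce (core F))
    (core_no_isolated F) h1
  have h3 := any_of_no_isolated H (Real.exp 2 * (Real.exp 2 * c)) F h2
  refine h3.trans ?_
  apply mul_le_mul_of_nonneg_left _ (Nat.cast_nonneg _)
  apply pow_le_pow_left₀ (by positivity)
  calc Real.exp 2 * (Real.exp 2 * c) = (Real.exp 2 * Real.exp 2) * c := by ring
    _ ≤ 55 * c := mul_le_mul_of_nonneg_right exp_two_sq_le hc0

/-- Subgraphs of degenerate graphs are degenerate. -/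
lemma IsDegenerate.mono {W : Type*} [Finite W] {F F' : SimpleGraph W} {d : ℕ}
    (hF : IsDegenerate F d) (h : F' ≤ F) : IsDegenerate F' d := by
  intro S hS
  obtain ⟨w, hw, hwd⟩ := hF S hS
  refine ⟨w, hw, le_trans (Set.ncard_le_ncard ?_ (Set.toFinite _)) hwd⟩
  rintro a ⟨haS, hadj⟩
  exact ⟨haS, h hadj⟩

/-- The hypothesis with one half at density `p` gives the hypothesis with one at `2 p`. -/
theorem hyp_of_half {n : ℕ} (H : SimpleGraph (Fin n)) (p : ℝ) (hp : 0 ≤ p)
    (hyp : ∀ F' : SimpleGraph (Fin n), F' ≤ H →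
        1 / 2 ≤ ((⊤ : SimpleGraph (Fin n)).copyCount F' : ℝ) * p ^ F'.edgeSet.ncard) :
    ∀ F' : SimpleGraph (Fin n), F' ≤ H →
        1 ≤ ((⊤ : SimpleGraph (Fin n)).copyCount F' : ℝ) * (2 * p) ^ F'.edgeSet.ncard := by
  intro F' hF'
  have h1 := hyp F' hF'
  by_cases he : F'.edgeSet.ncard = 0
  · rw [he, pow_zero, mul_one]
    have hpos : 0 < (⊤ : SimpleGraph (Fin n)).copyCount F' :=
      copyCount_pos.mpr (IsContained.of_le le_top)
    exact_mod_cast hpos
  · have he1 : 1 ≤ F'.edgeSet.ncard := Nat.one_le_iff_ne_zero.mpr he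
    have h2 : (2 : ℝ) ≤ 2 ^ F'.edgeSet.ncard := by
      calc (2 : ℝ) = 2 ^ 1 := (pow_one _).symm
        _ ≤ 2 ^ F'.edgeSet.ncard := pow_le_pow_right₀ (by norm_num) he1
    have hN : (0 : ℝ) ≤ ((⊤ : SimpleGraph (Fin n)).copyCount F' : ℝ) := Nat.cast_nonneg _
    have hpp : (0 : ℝ) ≤ p ^ F'.edgeSet.ncard := by positivity
    rw [mul_pow]
    have h3 : (0 : ℝ) ≤ ((⊤ : SimpleGraph (Fin n)).copyCount F' : ℝ) * p ^ F'.edgeSet.ncard :=
      mul_nonneg hN hpp
    calc (1 : ℝ) ≤ 2 * (((⊤ : SimpleGraph (Fin n)).copyCount F' : ℝ) * p ^ F'.edgeSet.ncard) := by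
          linarith
      _ ≤ 2 ^ F'.edgeSet.ncard *
            (((⊤ : SimpleGraph (Fin n)).copyCount F' : ℝ) * p ^ F'.edgeSet.ncard) :=
          mul_le_mul_of_nonneg_right h2 h3
      _ = ((⊤ : SimpleGraph (Fin n)).copyCount F' : ℝ) *
            (2 ^ F'.edgeSet.ncard * p ^ F'.edgeSet.ncard) := by ring

/-- Threshold form for a `d`-degenerate host `H`: if every subgraph of `H` has expected count
at least one half in `G(n,p)`, `p ≤ c` and `log n ≤ n c^d`, then every subgraph `F'` of `H`
satisfies `N(H,F') ≤ N(K_n,F') min(1, 110 c)^(e(F'))`. -/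
theorem degenerate_host_half {n : ℕ} (H : SimpleGraph (Fin n)) (p : ℝ) (hp : 0 ≤ p)
    (hyp : ∀ F' : SimpleGraph (Fin n), F' ≤ H →
        1 / 2 ≤ ((⊤ : SimpleGraph (Fin n)).copyCount F' : ℝ) * p ^ F'.edgeSet.ncard)
    (d : ℕ) (c : ℝ) (hpc : p ≤ c) (hlog : Real.log n ≤ n * c ^ d)
    (hH : IsDegenerate H d) (F' : SimpleGraph (Fin n)) (hF' : F' ≤ H) :
    (H.copyCount F' : ℝ) ≤ ((⊤ : SimpleGraph (Fin n)).copyCount F' : ℝ)
      * (min 1 (110 * c)) ^ F'.edgeSet.ncard := by
  have hc0 : 0 ≤ c := hp.trans hpc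
  have hlog' : Real.log n ≤ n * (2 * c) ^ d := by
    refine hlog.trans (mul_le_mul_of_nonneg_left ?_ (Nat.cast_nonneg n))
    exact pow_le_pow_left₀ hc0 (by linarith) d
  have h := degenerate_count H (2 * p) (by positivity) (hyp_of_half H p hp hyp) d (2 * c)
    (by linarith) hlog' F' (hH.mono hF')
  have h2 : (55 : ℝ) * (2 * c) = 110 * c := by ring
  rw [h2] at h
  exact h

end Vale.Agent.Helper23.KKDegenerate
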