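import Mathlib
import Vale.Agent.Helper8.KK.Defs

namespace Vale.Agent.Helper8.KK

open Finset SimpleGraph

/-- Two distinct vertex sets of copies of a connected graph `F` in `H` that are both good for
the same red set `R` (contained in `R`, all outside neighbours outside `R`) are far apart. -/
theorem far_of_good {n v : ℕ} (H : SimpleGraph (Fin n)) (F : SimpleGraph (Fin v))
    (hF : F.Connected) (R τ τ' : Finset (Fin n)) (E E' : Finset (Sym2 (Fin n)))
    (hτ : (τ, E) ∈ pairs H F) (hτ' : (τ', E') ∈ pairs H F) (hne : τ ≠ τ')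
    (hg : τ ⊆ R ∧ Disjoint (nb H τ) R) (hg' : τ' ⊆ R ∧ Disjoint (nb H τ') R) :
    Far H τ τ' := by
  classical
  unfold pairs pr at hτ hτ'
  simp only [Finset.mem_image, Finset.mem_filter, Finset.mem_univ, true_and,
    Prod.mk.injEq] at hτ hτ'
  obtain ⟨f, ⟨hf, _⟩, hfτ, _⟩ := hτ
  obtain ⟨g, ⟨hgi, hghom⟩, hgτ, _⟩ := hτ'
  -- (A) no edge from τ to τ' outside τ
  have hA : ∀ a ∈ τ, ∀ b ∈ τ', b ∉ τ → ¬ H.Adj a b := by
    intro a ha b hb hbτ hadj
    have hbnb : b ∈ nb H τ := by
      unfold nb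
      simp only [Finset.mem_filter, Finset.mem_univ, true_and]
      exact ⟨hbτ, a, ha, hadj⟩
    exact Finset.disjoint_left.mp hg.2 hbnb (hg'.1 hb)
  -- (B) disjointness
  have hB : Disjoint τ τ' := by
    rw [Finset.disjoint_left]
    intro c hc hc'
    have hcard : τ.card = τ'.card := by
      rw [← hfτ, ← hgτ, Finset.card_image_of_injective _ hf,
        Finset.card_image_of_injective _ hgi]
    have hex : ∃ d ∈ τ', d ∉ τ := by
      by_contra h
      push Not at h
      have hsub : τ' ⊆ τ := fun d hd => h d hd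
      exact hne (Finset.eq_of_subset_of_card_le hsub hcard.le).symm
    obtain ⟨d, hd, hdτ⟩ := hex
    rw [← hgτ] at hc' hd
    obtain ⟨a0, _, ha0⟩ := Finset.mem_image.mp hc'
    obtain ⟨a1, _, ha1⟩ := Finset.mem_image.mp hd
    obtain ⟨w⟩ := hF.preconnected a0 a1
    obtain ⟨dd, _, h1, h2⟩ := w.exists_boundary_dart {a | g a ∈ τ}
      (by show g a0 ∈ τ; rw [ha0]; exact hc) (by show ¬ g a1 ∈ τ; rw [ha1]; exact hdτ)
    have h1' : g dd.fst ∈ τ := h1
    have h2' : g dd.snd ∉ τ := h2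
    have hmem : g dd.snd ∈ τ' := by
      rw [← hgτ]; exact Finset.mem_image_of_mem _ (Finset.mem_univ _)
    exact hA _ h1' _ hmem h2' (hghom _ _ dd.adj)
  exact ⟨hB, fun a ha b hb => hA a ha b hb (Finset.disjoint_right.mp hB hb)⟩

end Vale.Agent.Helper8.KK
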