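import Mathlib
import Vale.Agent.Helper8.KK.Defs

namespace Vale.Agent.Helper8.KK

open Finset SimpleGraph

/-- The pair (vertex set, edge set) of the subgraph spanned by a copy is the pair of the
underlying vertex map. -/
lemma pair_toSubgraph {n v : ℕ} (G : SimpleGraph (Fin n)) (F : SimpleGraph (Fin v))
    (c : Copy F G) [DecidablePred (· ∈ c.toSubgraph.verts)]
    [DecidablePred (· ∈ c.toSubgraph.edgeSet)] :
    ((Finset.univ : Finset (Fin n)).filter (· ∈ c.toSubgraph.verts),
      (Finset.univ : Finset (Sym2 (Fin n))).filter (· ∈ c.toSubgraph.edgeSet)) = pr F c := by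
  classical
  unfold pr
  refine Prod.ext ?_ ?_
  · ext x
    simp only [Finset.mem_filter, Finset.mem_univ, true_and, Finset.mem_image]
    constructor
    · rintro ⟨a, _, rfl⟩; exact ⟨a, rfl⟩
    · rintro ⟨a, rfl⟩; exact ⟨a, trivial, rfl⟩
  · ext e
    induction e using Sym2.ind with
    | _ a b =>
      simp only [Finset.mem_filter, Finset.mem_univ, true_and, Finset.mem_image,
        Subgraph.mem_edgeSet, SimpleGraph.mem_edgeFinset]
      constructor
      · rintro ⟨x, y, hxy, rfl, rfl⟩
        exact ⟨s(x, y), hxy, rfl⟩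
      · rintro ⟨e', he', h⟩
        induction e' using Sym2.ind with
        | _ x y =>
          have hxy : F.Adj x y := he'
          rw [Sym2.map_mk, Sym2.eq_iff] at h
          rcases h with ⟨h1, h2⟩ | ⟨h1, h2⟩
          · exact ⟨x, y, hxy, h1, h2⟩
          · exact ⟨y, x, hxy.symm, h2, h1⟩

/-- The number of copies of `F` in `G` equals the number of pairs. -/
theorem copyCount_eq_card_pairs {n v : ℕ} (G : SimpleGraph (Fin n)) (F : SimpleGraph (Fin v)) :
    G.copyCount F = (pairs G F).card := by
  classical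
  rw [copyCount]
  refine Finset.card_bij (fun G' _ => ((Finset.univ : Finset (Fin n)).filter (· ∈ G'.verts),
    (Finset.univ : Finset (Sym2 (Fin n))).filter (· ∈ G'.edgeSet))) ?_ ?_ ?_
  · intro G' hG'
    have hiso : Nonempty (F ≃g G'.coe) := by simpa using hG'
    have hmem : G' ∈ Set.range (Copy.toSubgraph (A := F) (B := G)) := by
      rw [Copy.range_toSubgraph]; exact hiso
    obtain ⟨c, rfl⟩ := hmem
    rw [pair_toSubgraph G F c]
    unfold pairs
    simp only [Finset.mem_image, Finset.mem_filter, Finset.mem_univ, true_and]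
    exact ⟨c, ⟨c.injective, fun a b h => c.toHom.map_adj h⟩, rfl⟩
  · intro G1 _ G2 _ h
    simp only [Prod.mk.injEq] at h
    obtain ⟨h1, h2⟩ := h
    apply Subgraph.ext
    · ext x
      have := congrArg (fun s => x ∈ s) h1
      simpa using this
    · ext a b
      have := congrArg (fun s => s(a, b) ∈ s) h2
      simpa using this
  · intro x hx
    unfold pairs at hx
    simp only [Finset.mem_image, Finset.mem_filter, Finset.mem_univ, true_and] at hx
    obtain ⟨f, ⟨hf, hhom⟩, rfl⟩ := hx
    refine ⟨(⟨⟨f, fun {a b} h => hhom a b h⟩, hf⟩ : Copy F G).toSubgraph, ?_,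
      pair_toSubgraph G F ⟨⟨f, fun {a b} h => hhom a b h⟩, hf⟩⟩
    simp only [Finset.mem_filter, Finset.mem_univ, true_and]
    exact ⟨(⟨⟨f, fun {a b} h => hhom a b h⟩, hf⟩ : Copy F G).isoToSubgraph⟩

theorem copyCount_le_card_pairs {n v : ℕ} (G : SimpleGraph (Fin n)) (F : SimpleGraph (Fin v)) :
    G.copyCount F ≤ (pairs G F).card := (copyCount_eq_card_pairs G F).le

theorem card_pairs_le_copyCount {n v : ℕ} (G : SimpleGraph (Fin n)) (F : SimpleGraph (Fin v)) :
    (pairs G F).card ≤ G.copyCount F := (copyCount_eq_card_pairs G F).ge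

end Vale.Agent.Helper8.KK
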