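import Mathlib

/-
P329 (generalized star height), core definitions and closure lemmas.
Generalized regular expressions (union, concatenation, complement, star), their languages,
their star height, and the classes SF (height zero) and H1 (height at most one).
-/

namespace Vale.Agent.Helper23.P329

open Language
open scoped Computability

/-- Generalized regular expressions over the alphabet `α`. -/
inductive GRegex (α : Type) : Type
  | zero : GRegex α
  | one : GRegex α
  | char : α → GRegex α
  | plus : GRegex α → GRegex α → GRegex α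
  | comp : GRegex α → GRegex α → GRegex α
  | neg : GRegex α → GRegex α
  | star : GRegex α → GRegex α

namespace GRegex

variable {α : Type}

/-- The language denoted by a generalized regular expression; `neg` is the complement
in the set of all words over `α`. -/
def lang : GRegex α → Language α
  | zero => 0
  | one => 1
  | char a => {[a]}
  | plus P Q => P.lang + Q.lang
  | comp P Q => P.lang * Q.lang
  | neg P => (P.lang)ᶜ
  | star P => (P.lang)∗

/-- The star height of a generalized regular expression. -/
def height : GRegex α → ℕ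
  | zero => 0
  | one => 0
  | char _ => 0
  | plus P Q => max P.height Q.height
  | comp P Q => max P.height Q.height
  | neg P => P.height
  | star P => P.height + 1

end GRegex

variable {α : Type}

/-- Star-free languages: denoted by an expression of star height zero. -/
def SF (L : Language α) : Prop := ∃ E : GRegex α, E.height = 0 ∧ E.lang = L

/-- Languages of generalized star height at most one. -/
def H1 (L : Language α) : Prop := ∃ E : GRegex α, E.height ≤ 1 ∧ E.lang = L

theorem SF.zero : SF (0 : Language α) := ⟨GRegex.zero, rfl, rfl⟩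

theorem SF.one : SF (1 : Language α) := ⟨GRegex.one, rfl, rfl⟩

theorem SF.char (a : α) : SF ({[a]} : Language α) := ⟨GRegex.char a, rfl, rfl⟩

theorem SF.add {L M : Language α} (hL : SF L) (hM : SF M) : SF (L + M) := by
  obtain ⟨E, hE, rfl⟩ := hL
  obtain ⟨F, hF, rfl⟩ := hM
  exact ⟨GRegex.plus E F, by simp [GRegex.height, hE, hF], rfl⟩

theorem SF.mul {L M : Language α} (hL : SF L) (hM : SF M) : SF (L * M) := by
  obtain ⟨E, hE, rfl⟩ := hL
  obtain ⟨F, hF, rfl⟩ := hM
  exact ⟨GRegex.comp E F, by simp [GRegex.height, hE, hF], rfl⟩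

theorem SF.compl {L : Language α} (hL : SF L) : SF Lᶜ := by
  obtain ⟨E, hE, rfl⟩ := hL
  exact ⟨GRegex.neg E, by simp [GRegex.height, hE], rfl⟩

theorem mem_top (x : List α) : x ∈ (⊤ : Language α) := trivial

theorem mem_compl_iff (L : Language α) (x : List α) : x ∈ Lᶜ ↔ x ∉ L := Iff.rfl

theorem SF.top : SF (⊤ : Language α) := by
  have h : (⊤ : Language α) = (0 : Language α)ᶜ := by
    ext x
    rw [mem_compl_iff]
    exact ⟨fun _ => Language.notMem_zero x, fun _ => mem_top x⟩
  rw [h]
  exact SF.zero.compl

theorem SF.inf {L M : Language α} (hL : SF L) (hM : SF M) : SF (L ⊓ M) := by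
  have h : L ⊓ M = (Lᶜ + Mᶜ)ᶜ := by
    rw [Language.add_def]
    ext x
    simp only [Language.mem_inf]
    constructor
    · rintro ⟨h1, h2⟩ h3
      rcases h3 with h3 | h3
      · exact h3 h1
      · exact h3 h2
    · intro h3
      constructor
      · by_contra h1
        exact h3 (Or.inl h1)
      · by_contra h2
        exact h3 (Or.inr h2)
  rw [h]
  exact (hL.compl.add hM.compl).compl

theorem SF.h1 {L : Language α} (hL : SF L) : H1 L := by
  obtain ⟨E, hE, rfl⟩ := hL
  exact ⟨E, by omega, rfl⟩

theorem H1.add {L M : Language α} (hL : H1 L) (hM : H1 M) : H1 (L + M) := by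
  obtain ⟨E, hE, rfl⟩ := hL
  obtain ⟨F, hF, rfl⟩ := hM
  exact ⟨GRegex.plus E F, by simp [GRegex.height, hE, hF], rfl⟩

theorem H1.mul {L M : Language α} (hL : H1 L) (hM : H1 M) : H1 (L * M) := by
  obtain ⟨E, hE, rfl⟩ := hL
  obtain ⟨F, hF, rfl⟩ := hM
  exact ⟨GRegex.comp E F, by simp [GRegex.height, hE, hF], rfl⟩

theorem H1.compl {L : Language α} (hL : H1 L) : H1 Lᶜ := by
  obtain ⟨E, hE, rfl⟩ := hL
  exact ⟨GRegex.neg E, by simpa [GRegex.height] using hE, rfl⟩

theorem H1.inf {L M : Language α} (hL : H1 L) (hM : H1 M) : H1 (L ⊓ M) := by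
  have h : L ⊓ M = (Lᶜ + Mᶜ)ᶜ := by
    rw [Language.add_def]
    ext x
    simp only [Language.mem_inf]
    constructor
    · rintro ⟨h1, h2⟩ h3
      rcases h3 with h3 | h3
      · exact h3 h1
      · exact h3 h2
    · intro h3
      constructor
      · by_contra h1
        exact h3 (Or.inl h1)
      · by_contra h2
        exact h3 (Or.inr h2)
  rw [h]
  exact (hL.compl.add hM.compl).compl

theorem SF.kstar {L : Language α} (hL : SF L) : H1 (L∗) := by
  obtain ⟨E, hE, rfl⟩ := hL
  exact ⟨GRegex.star E, by simp [GRegex.height, hE], rfl⟩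

/-- Finite sums of star-free languages are star-free. -/
theorem SF.finset_sum {ι : Type} (s : Finset ι) (f : ι → Language α) (h : ∀ i ∈ s, SF (f i)) :
    SF (∑ i ∈ s, f i) := by
  classical
  induction s using Finset.induction_on with
  | empty => simpa using SF.zero
  | insert a s ha ih =>
    rw [Finset.sum_insert ha]
    exact (h a (Finset.mem_insert_self a s)).add (ih (fun i hi => h i (Finset.mem_insert_of_mem hi)))

/-- Finite sums of languages of height at most one have height at most one. -/
theorem H1.finset_sum {ι : Type} (s : Finset ι) (f : ι → Language α) (h : ∀ i ∈ s, H1 (f i)) :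
    H1 (∑ i ∈ s, f i) := by
  classical
  induction s using Finset.induction_on with
  | empty => simpa using SF.zero.h1
  | insert a s ha ih =>
    rw [Finset.sum_insert ha]
    exact (h a (Finset.mem_insert_self a s)).add (ih (fun i hi => h i (Finset.mem_insert_of_mem hi)))

theorem mem_finset_sum {ι : Type} (s : Finset ι) (f : ι → Language α) (x : List α) :
    x ∈ ∑ i ∈ s, f i ↔ ∃ i ∈ s, x ∈ f i := by
  classical
  induction s using Finset.induction_on with
  | empty =>
    simp only [Finset.sum_empty, Finset.notMem_empty, false_and, exists_false, iff_false]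
    exact Language.notMem_zero x
  | insert a s ha ih =>
    rw [Finset.sum_insert ha, Language.mem_add, ih]
    simp

/-- The one-letter words whose letter lies in the finite set `s`. -/
def letters (s : Finset α) : Language α := {w | ∃ a ∈ s, w = [a]}

theorem mem_letters (s : Finset α) (w : List α) : w ∈ letters s ↔ ∃ a ∈ s, w = [a] := Iff.rfl

theorem sf_letters (s : Finset α) : SF (letters s) := by
  have h : letters s = ∑ a ∈ s, ({[a]} : Language α) := by
    ext x
    rw [mem_finset_sum]
    simp only [mem_letters]
    constructor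
    · rintro ⟨a, ha, rfl⟩
      exact ⟨a, ha, rfl⟩
    · rintro ⟨a, ha, hx⟩
      exact ⟨a, ha, hx⟩
  rw [h]
  exact SF.finset_sum s _ (fun a _ => SF.char a)

/-- The words all of whose letters lie in `s`. -/
def wordsOver (s : Finset α) : Language α := {w | ∀ a ∈ w, a ∈ s}

theorem mem_wordsOver (s : Finset α) (w : List α) : w ∈ wordsOver s ↔ ∀ a ∈ w, a ∈ s := Iff.rfl

theorem sf_wordsOver [Fintype α] [DecidableEq α] (s : Finset α) : SF (wordsOver s) := by
  have h : wordsOver s = ((⊤ : Language α) * letters sᶜ * ⊤)ᶜ := by
    ext x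
    rw [mem_compl_iff]
    constructor
    · intro hx hmem
      rw [Language.mem_mul] at hmem
      obtain ⟨u, hu, v, -, rfl⟩ := hmem
      rw [Language.mem_mul] at hu
      obtain ⟨u1, -, u2, hu2, rfl⟩ := hu
      obtain ⟨a, ha, rfl⟩ := hu2
      have : a ∈ s := hx a (by simp)
      exact (Finset.mem_compl.mp ha) this
    · intro hx a ha
      by_contra has
      apply hx
      obtain ⟨u, v, rfl⟩ := List.append_of_mem ha
      rw [Language.mem_mul]
      refine ⟨u ++ [a], ?_, v, mem_top v, by simp⟩
      rw [Language.mem_mul]
      exact ⟨u, mem_top u, [a], ⟨a, Finset.mem_compl.mpr has, rfl⟩, rfl⟩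
  rw [h]
  exact ((SF.top.mul (sf_letters _)).mul SF.top).compl

theorem flatten_map_singleton (y : List α) : (y.map (fun a => [a])).flatten = y := by
  induction y with
  | nil => rfl
  | cons a t ih =>
    rw [List.map_cons, List.flatten_cons, ih]
    rfl

theorem kstar_letters (s : Finset α) : (letters s)∗ = wordsOver s := by
  ext x
  rw [Language.mem_kstar]
  constructor
  · rintro ⟨L, rfl, hL⟩ a ha
    rw [List.mem_flatten] at ha
    obtain ⟨l, hl, hal⟩ := ha
    obtain ⟨b, hb, rfl⟩ := hL l hl
    simp only [List.mem_singleton] at hal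
    rw [hal]
    exact hb
  · intro hx
    refine ⟨x.map (fun a => [a]), (flatten_map_singleton x).symm, ?_⟩
    intro y hy
    rw [List.mem_map] at hy
    obtain ⟨a, ha, rfl⟩ := hy
    exact ⟨a, hx a ha, rfl⟩

end Vale.Agent.Helper23.P329
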