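import Vale.Agent.Helper23.P329Core

/-
P329: deterministic automata over an alphabet `α` with state type `Q`, given by a transition
function `step : Q → α → Q`.  First-hit words, base-avoiding words, return counts.
-/

namespace Vale.Agent.Helper23.P329

open Language
open scoped Computability

variable {α Q : Type}

/-- The state reached from `q` after reading `w`. -/
def run (step : Q → α → Q) (q : Q) (w : List α) : Q := w.foldl step q

/-- `hit step q0 q w`: the word `w` is nonempty, leads from `q` to `q0`, and no nonempty
proper initial segment of `w` leads from `q` to `q0`. -/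
def hit [DecidableEq Q] (step : Q → α → Q) (q0 : Q) : Q → List α → Prop
  | _, [] => False
  | q, a :: t => if step q a = q0 then t = [] else hit step q0 (step q a) t

/-- `avoid step q0 q w`: no nonempty initial segment of `w` leads from `q` to `q0`. -/
def avoid (step : Q → α → Q) (q0 : Q) : Q → List α → Prop
  | _, [] => True
  | q, a :: t => step q a ≠ q0 ∧ avoid step q0 (step q a) t

/-- The number of nonempty initial segments of `w` that lead from `q` to `q0`. -/
def retCount [DecidableEq Q] (step : Q → α → Q) (q0 : Q) : Q → List α → ℕ
  | _, [] => 0
  | q, a :: t => (if step q a = q0 then 1 else 0) + retCount step q0 (step q a) t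

/-- First-hit words from `q` to `q0`. -/
def Hit [DecidableEq Q] (step : Q → α → Q) (q0 q : Q) : Language α := {w | hit step q0 q w}

/-- Words read from `q` without ever entering `q0`. -/
def Avoid (step : Q → α → Q) (q0 q : Q) : Language α := {w | avoid step q0 q w}

/-- Words leading from `q` to `q'` without ever entering `q0`. -/
def Stay (step : Q → α → Q) (q0 q q' : Q) : Language α :=
  {w | avoid step q0 q w ∧ run step q w = q'}

/-- Words leading from `q` to `q'`. -/
def Reach (step : Q → α → Q) (q q' : Q) : Language α := {w | run step q w = q'}

/-- Words which, read from `q`, enter `q0` an even number of times. -/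
def EvenRet [DecidableEq Q] (step : Q → α → Q) (q0 q : Q) : Language α :=
  {w | Even (retCount step q0 q w)}

theorem run_nil (step : Q → α → Q) (q : Q) : run step q [] = q := rfl

theorem run_cons (step : Q → α → Q) (q : Q) (a : α) (t : List α) :
    run step q (a :: t) = run step (step q a) t := rfl

theorem run_append (step : Q → α → Q) (q : Q) (u v : List α) :
    run step q (u ++ v) = run step (run step q u) v := by
  simp [run, List.foldl_append]

theorem mem_Hit [DecidableEq Q] (step : Q → α → Q) (q0 q : Q) (w : List α) :
    w ∈ Hit step q0 q ↔ hit step q0 q w := Iff.rfl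

theorem mem_Avoid (step : Q → α → Q) (q0 q : Q) (w : List α) :
    w ∈ Avoid step q0 q ↔ avoid step q0 q w := Iff.rfl

theorem mem_Stay (step : Q → α → Q) (q0 q q' : Q) (w : List α) :
    w ∈ Stay step q0 q q' ↔ avoid step q0 q w ∧ run step q w = q' := Iff.rfl

theorem mem_Reach (step : Q → α → Q) (q q' : Q) (w : List α) :
    w ∈ Reach step q q' ↔ run step q w = q' := Iff.rfl

theorem mem_EvenRet [DecidableEq Q] (step : Q → α → Q) (q0 q : Q) (w : List α) :
    w ∈ EvenRet step q0 q ↔ Even (retCount step q0 q w) := Iff.rfl

theorem avoid_nil (step : Q → α → Q) (q0 q : Q) : avoid step q0 q [] := trivial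

theorem avoid_cons (step : Q → α → Q) (q0 q : Q) (a : α) (t : List α) :
    avoid step q0 q (a :: t) ↔ step q a ≠ q0 ∧ avoid step q0 (step q a) t := Iff.rfl

theorem hit_nil [DecidableEq Q] (step : Q → α → Q) (q0 q : Q) : ¬ hit step q0 q [] :=
  fun h => h

theorem hit_cons [DecidableEq Q] (step : Q → α → Q) (q0 q : Q) (a : α) (t : List α) :
    hit step q0 q (a :: t) ↔
      if step q a = q0 then t = [] else hit step q0 (step q a) t := Iff.rfl

theorem retCount_nil [DecidableEq Q] (step : Q → α → Q) (q0 q : Q) :
    retCount step q0 q [] = 0 := rfl

theorem retCount_cons [DecidableEq Q] (step : Q → α → Q) (q0 q : Q) (a : α) (t : List α) :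
    retCount step q0 q (a :: t) =
      (if step q a = q0 then 1 else 0) + retCount step q0 (step q a) t := rfl

end Vale.Agent.Helper23.P329
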